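import Vale.Agent.P212.Transfer

namespace Vale.Agent.Results.P212.Counter

open Vale.Agent.P212

theorem result (H : Type) [NormedAddCommGroup H] [InnerProductSpace ℂ H] [CompleteSpace H]
    (b : HilbertBasis ℕ ℂ H) : ∃ (X : Type) (_ : MetricSpace X), UnifDiscrete X ∧ BddGeom X ∧
      ∃ (r : ℝ) (y : Fred (Rips X r) H), NonTorsion y ∧
        ∀ (E : Type) [NormedAddCommGroup E] [InnerProductSpace ℂ E] [CompleteSpace E]
          (J : X → H →ₗᵢ[ℂ] E), IsHilbertSum ℂ (fun _ : X => H) J → IndexVanishes J y := by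
  obtain ⟨X, _, h1, h2, r, y, h3, h4⟩ := main H b
  exact ⟨X, inferInstance, h1, h2, r, y, h3, fun E _ _ _ J hJ => h4.transfer h2 hJ⟩

end Vale.Agent.Results.P212.Counter
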